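import Mathlib
import Vale.Agent.Lib.P030.Final

/-!
# A lower bound for the denominator of Catalan's constant

If Catalan's constant `G = ∑ (-1)^j / (2 j + 1)^2` is a rational number `a / b` with `b > 0`,
then `b > 10 ^ 1000`. The proof uses the Euler transformation of the defining series (with an
explicit remainder), exact integer recurrences for its partial sums, and a Farey pair of
rationals enclosing `G`.
-/

namespace Vale.Agent.Results.P030.DenominatorBound

theorem result (a : ℤ) (b : ℕ) (hb : 0 < b)
    (h : ∑' j : ℕ, (-1 : ℝ) ^ j / (2 * (j : ℝ) + 1) ^ 2 = (a : ℝ) / (b : ℝ)) :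
    10 ^ 1000 < b :=
  Vale.Agent.Lib.P030.catalan_den a b hb h

end Vale.Agent.Results.P030.DenominatorBound
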